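import Vale.Agent.Lib.P038.SatK.I.P5_2.H
noncomputable section
namespace Vale.Agent.Lib.P038.SatK.I.P5_2.S0
open Vale.Agent.Lib.P038.Sat Vale.Agent.Lib.P038.SatK Vale.Agent.Lib.P038.SatK.I.P5_2
def b0 : List Nat := [nat_lit 914793674309671,nat_lit 578431085797720225,nat_lit 3459890430974377889,nat_lit 4036351191800889249,nat_lit 37791615477285858197408,nat_lit 985205368160311,nat_lit 5190187515918958769,nat_lit 1055591292207175,nat_lit 1155032635719041217,nat_lit 844502239543383,nat_lit 1731282298969800913,nat_lit 5766226098706727360,nat_lit 18899843421391873786320,nat_lit 51956985754821593547232,nat_lit 23626822153247280873968,nat_lit 1407503732572168]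
def p0 : List Nat := [nat_lit 4503599627378688,nat_lit 9007199254790146,nat_lit 13510798882168832,nat_lit 147582959788931219460,nat_lit 27024346543366150,nat_lit 36032645309677576,nat_lit 45040944076054538,nat_lit 49541794924412932,nat_lit 442766898163349487626,nat_lit 479660385211257020426,nat_lit 516553872259164446724,nat_lit 8246605643780]
def o0 : List Nat := [nat_lit 4]
theorem ok : segCheck (Gen.gen sh_5_2_0_f (flP 5 2)) W M GT 4 0 1 H [b0] [] [p0] [o0] = true := by decide +kernel
theorem seg {τ : Nat → Bool} (hgen : ∀ t c, Gen.gen sh_5_2_0_f (flP 5 2) t = some c → holdsG τ c)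
  (hin : ∀ g, g < 0 → HL W (loc GT τ) (getB H g)) :
  ∀ g, 0 ≤ g → g < 1 → HL W (loc GT τ) (getB H g) :=
  segCheck_sound ok hgen hin
end Vale.Agent.Lib.P038.SatK.I.P5_2.S0
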